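import Vale.Agent.P087.Star

/-! A tuple with finite microstates free entropy strictly below its nonmicrostates free entropy. -/

open MeasureTheory Vale.Agent.P087

namespace Vale.Agent.Results.P087.Counterexample

theorem result : ∃ (H : Type) (_ : NormedAddCommGroup H) (_ : InnerProductSpace ℂ H)
    (_ : CompleteSpace H) (M : VonNeumannAlgebra H) (Ω : H) (n : ℕ) (X S : Fin n → H →L[ℂ] H),
    1 ≤ n ∧ IsTraceVec M Ω ∧ (∀ j, X j ∈ M ∧ IsSelfAdjoint (X j)) ∧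
    (∀ j, S j ∈ M ∧ IsSelfAdjoint (S j) ∧ IsSemicirc Ω (S j)) ∧
    IsFree Ω (fun o : Option (Fin n) => o.elim (Set.range X) fun j => {S j}) ∧
    Measurable (flow Ω X S) ∧
    ∫⁻ t in Set.Ioi (0 : ℝ), (ENNReal.ofReal (Fintype.card (Fin n) / (1 + t)) - flow Ω X S t) < ⊤ ∧
    ∫⁻ t in Set.Ioi (0 : ℝ), (flow Ω X S t - ENNReal.ofReal (Fintype.card (Fin n) / (1 + t))) < ⊤ ∧
    ⊥ < chi Ω X ∧ chi Ω X < chiStar Ω X S := by
  obtain ⟨q, hq⟩ : ∃ q : ℕ, (q : ℝ) = 2 ^ 40 := ⟨2 ^ 40, by norm_num⟩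
  obtain ⟨n, ⟨e⟩⟩ := Finite.exists_equiv_fin (Fin (q ^ 2) ⊕ Fin (q ^ 2) × Fin (q ^ 2) × Fin (q ^ 2))
  obtain ⟨l, r, h⟩ := exists_fock (Fin (q ^ 2) ⊕ Fin n ⊕ Fin n)
  have hn : (Fintype.card (Fin n) : ℝ) = 2 ^ 80 + 2 ^ 240 := by
    rw [← Fintype.card_congr e]
    simp only [Fintype.card_sum, Fintype.card_prod, Fintype.card_fin]
    push_cast
    rw [hq]
    norm_num
  have hη : ∀ i, 0 < Sum.elim (fun _ => ((2 : ℝ) ^ 240)⁻¹) (fun _ => (1 : ℝ)) (e.symm i) :=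
    fun i => by cases e.symm i <;> simp
  have hη1 : ∀ i, Sum.elim (fun _ => ((2 : ℝ) ^ 240)⁻¹) (fun _ => (1 : ℝ)) (e.symm i) ≤ 1 :=
    fun i => by cases e.symm i <;> norm_num
  have hs := model_star h e.symm (η0 := ((2 : ℝ) ^ 240)⁻¹) (q := 2 ^ 40) (by positivity)
    (by norm_num) (by norm_num) (by simp [hq]) (by rw [hn]; norm_num)
  refine ⟨_, _, _, inferInstance, MM r, _, n, _, SS l, ?_, h.isTraceVec,
    fun j => ⟨XX_mem _ _ h j, XX_sa _ _ _ j⟩, fun j => ⟨h.s_mem _, fld_sa _ _, h.semicirc _⟩,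
    model_free _ _ h, measurable_flow h hη, pos_lt_top h hη hη1, hs.1, model_lower _ _ h hη,
    (model_upper h e.symm (T := 2 ^ 80 + 2 ^ 240 + 74500) (by positivity) (by norm_num)
      (by rw [hn]; norm_num)).trans_lt (lt_of_lt_of_le (EReal.coe_lt_coe_iff.2 ?_) hs.2)⟩
  · have : (0 : ℝ) < Fintype.card (Fin n) := by rw [hn]; positivity
    simpa [Nat.one_le_iff_ne_zero, Nat.pos_iff_ne_zero] using this
  · have h2 : Real.log 2 ≤ 1 := (Real.log_le_sub_one_of_pos two_pos).trans (by norm_num)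
    rw [hn, Real.log_mul (x := 2 * Real.pi) (by positivity) (Real.exp_pos 1).ne', Real.log_exp,
      Real.log_pow, Real.log_inv, Real.log_pow]
    push_cast
    linarith

end Vale.Agent.Results.P087.Counterexample
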